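import Vale.Agent.H88.BaireCode

/-!
# Definitions for the theorem on bi-uniformly E0-invariant homeomorphisms

* `join A B`: the interleaving of two sets.
* `shift X`: the left shift of a set.
* `UnifE0 F`: changing a set below `a` changes its image only below some `b` (uniformly).
* `Generically P`: `P` holds on a countable intersection of dense open subsets of Cantor space.
* `GoodTest Θ t`: `t` is a computable test on finite strings that is sound for the map `Θ`,
  monotone, and generically complete.
* `stepList`, `iterList`: finite approximations of `Θ` and of its iterates computed from `t`.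
-/

namespace Vale.Agent.H88

/-- The interleaving of two sets. -/
def join (A B : ℕ → Bool) : ℕ → Bool := fun n => if n % 2 = 0 then A (n / 2) else B (n / 2)

/-- The left shift on Cantor space. -/
def shift (X : ℕ → Bool) : ℕ → Bool := fun n => X (n + 1)

/-- Uniform invariance for equality from some point on: if two sets agree from `a` on, then
their images agree from `b` on, where `b` depends only on `a`. -/
def UnifE0 (F : (ℕ → Bool) → (ℕ → Bool)) : Prop :=
  ∀ a, ∃ b, ∀ X Y : ℕ → Bool, (∀ n, a ≤ n → X n = Y n) → ∀ n, b ≤ n → F X n = F Y n

/-- `P` holds on the intersection of countably many dense open subsets of Cantor space. -/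
def Generically (P : (ℕ → Bool) → Prop) : Prop :=
  ∃ U : ℕ → Set (ℕ → Bool), (∀ m, IsOpen (U m)) ∧ (∀ m, Dense (U m)) ∧
    ∀ G, (∀ m, G ∈ U m) → P G

/-- A computable test on finite strings which is sound for `Θ`, monotone in the step bound and
in the finite string, and generically complete. -/
structure GoodTest (Θ : (ℕ → Bool) → (ℕ → Bool)) (t : ℕ → ℕ → List Bool → Option Bool) :
    Prop where
  comp : Computable (fun p : ℕ × ℕ × List Bool => t p.1 p.2.1 p.2.2)
  sound : ∀ n k ρ v, t n k ρ = some v → ∀ B, Ext ρ B → Θ B n = v
  mono : ∀ n k k' ρ ρ', k ≤ k' → ρ <+: ρ' → (t n k ρ).isSome → (t n k' ρ').isSome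
  complete : Generically (fun B => ∀ n, ∃ k K, (t n k (pre B K)).isSome)

/-- The first `m` values found by the test `t` (with step bound `k`, on the finite string `ρ`),
stopping at the first failure. -/
def stepAux (t : ℕ → ℕ → List Bool → Option Bool) (k : ℕ) (ρ : List Bool) : ℕ → List Bool
  | 0 => []
  | m + 1 =>
    if (stepAux t k ρ m).length = m then
      (match t m k ρ with
        | some b => stepAux t k ρ m ++ [b]
        | none => stepAux t k ρ m)
    else stepAux t k ρ m

/-- The longest initial run of values found by the test below `k`. -/
def stepList (t : ℕ → ℕ → List Bool → Option Bool) (k : ℕ) (ρ : List Bool) : List Bool :=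
  stepAux t k ρ k

/-- Iterating `stepList`. -/
def iterList (t : ℕ → ℕ → List Bool → Option Bool) (k : ℕ) : ℕ → List Bool → List Bool
  | 0, ρ => ρ
  | y + 1, ρ => stepList t k (iterList t k y ρ)

/-- The monotonization of a test by searching the initial segments of the string. -/
def monoTest (r : ℕ → ℕ → List Bool → Option Bool) (n k : ℕ) (ρ : List Bool) : Option Bool :=
  ((List.range (ρ.length + 1)).filterMap (fun j => r n k (ρ.take j))).head?

/-- The raw test obtained from an oracle code that is sound below `τ`: a finite table for the
arguments below `n₀`, the code on the string overwritten by `τ` for the other arguments. -/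
noncomputable def rawTest (Θ : (ℕ → Bool) → (ℕ → Bool)) (c : OCode) (τ : List Bool)
    (n₀ K₀ : ℕ) (n k : ℕ) (ρ : List Bool) : Option Bool :=
  if n < n₀ then (if K₀ ≤ ρ.length then some (Θ (pad (ρ.take K₀)) n) else none)
  else (Nat.Partrec.Code.evaln k (prog c (τ ++ ρ.drop τ.length)) n).map (fun v => decide (v = 1))

end Vale.Agent.H88
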