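import Vale.Agent.H88.E0.Defs

/-!
# Generic properties: closure lemmas

`Generically P` : there are dense open sets `U m` with `P G` for every `G` in all of them.

Sketches.
* `mono`: same family.
* `and`: family `U m ∩ V m` (`Dense.inter_of_isOpen_left`).
* `forall_nat`: family `m ↦ U m.unpair.1 m.unpair.2`.
* `comp`: family `f ⁻¹' U m`; open by continuity, dense because `f` is an open map
  (`Dense.preimage`).
* `dense_of_forall_ext`: a nonempty open set contains a cylinder (`isOpen_pi_iff`, as in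
  `exists_dense_code` of `Vale/Agent/H88/BaireCode.lean`); use `dense_iff_inter_open`.
-/

namespace Vale.Agent.H88

theorem Generically.mono {P Q : (ℕ → Bool) → Prop} (h : Generically P)
    (hPQ : ∀ G, P G → Q G) : Generically Q := by
  obtain ⟨U, hU1, hU2, hU3⟩ := h
  exact ⟨U, hU1, hU2, fun G hG => hPQ G (hU3 G hG)⟩

theorem Generically.and {P Q : (ℕ → Bool) → Prop} (hP : Generically P) (hQ : Generically Q) :
    Generically (fun G => P G ∧ Q G) := by
  obtain ⟨U, hU1, hU2, hU3⟩ := hP
  obtain ⟨V, hV1, hV2, hV3⟩ := hQ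
  refine ⟨fun m => U m ∩ V m, fun m => (hU1 m).inter (hV1 m),
    fun m => (hU2 m).inter_of_isOpen_left (hV2 m) (hU1 m), fun G hG => ?_⟩
  exact ⟨hU3 G fun m => (hG m).1, hV3 G fun m => (hG m).2⟩

theorem Generically.forall_nat {P : ℕ → (ℕ → Bool) → Prop} (h : ∀ y, Generically (P y)) :
    Generically (fun G => ∀ y, P y G) := by
  choose U hU1 hU2 hU3 using h
  refine ⟨fun m => U m.unpair.1 m.unpair.2, fun m => hU1 _ _, fun m => hU2 _ _,
    fun G hG y => hU3 y G fun m => ?_⟩
  have h1 := hG (Nat.pair y m)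
  simp only [Nat.unpair_pair] at h1
  exact h1

/-- Generic properties pull back along continuous open maps. -/
theorem Generically.comp {P : (ℕ → Bool) → Prop} (h : Generically P)
    {f : (ℕ → Bool) → (ℕ → Bool)} (hf : Continuous f) (hopen : IsOpenMap f) :
    Generically (fun G => P (f G)) := by
  obtain ⟨U, hU1, hU2, hU3⟩ := h
  exact ⟨fun m => f ⁻¹' U m, fun m => (hU1 m).preimage hf, fun m => (hU2 m).preimage hopen,
    fun G hG => hU3 (f G) fun m => hG m⟩

/-- A set that meets every cylinder is dense. -/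
theorem dense_of_forall_ext {U : Set (ℕ → Bool)} (h : ∀ σ : List Bool, ∃ B, Ext σ B ∧ B ∈ U) :
    Dense U := by
  rw [dense_iff_inter_open]
  intro O hO hne
  obtain ⟨A₀, hA₀⟩ := hne
  obtain ⟨I, u, hu, hsub⟩ := isOpen_pi_iff.mp hO A₀ hA₀
  obtain ⟨B, hB, hBU⟩ := h (pre A₀ (I.sup id + 1))
  refine ⟨B, hsub ?_, hBU⟩
  intro a ha
  have ha' : a < I.sup id + 1 := Nat.lt_succ_of_le (Finset.le_sup (f := id) ha)
  have h1 := hB a (by rw [length_pre]; exact ha')
  have h2 := ext_pre A₀ (I.sup id + 1) a (by rw [length_pre]; exact ha')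
  rw [h1, ← h2]
  exact (hu a ha).2

end Vale.Agent.H88
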