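import Vale.Agent.H88.E0.Defs

/-!
# The join of two sets and Turing reducibility

`join A B n = if n % 2 = 0 then A (n / 2) else B (n / 2)`.

Sketches (style of `recursiveIn_par` in `Vale/Agent/H88/OracleLin.lean`; unfold
`TuringReducible` with `RecursiveIn.iff_nat`):
* `left_le_join`: `chi A n = chi (join A B) (2 * n)`: compose the oracle with `n ↦ 2 * n`.
* `right_le_join`: compose the oracle with `n ↦ 2 * n + 1`.
* `xor_le_join`: pair the two previous and apply the computable map sending the pair
  of values `a`, `b` to their sum modulo 2.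
* `join_le`: `chi (join A B) n = (1 - n % 2) * chi A (n / 2) + (n % 2) * chi B (n / 2)`;
  all functions involved are total, so pair `chi A ∘ (· / 2)`, `chi B ∘ (· / 2)` and `id`
  and apply a plain computable function.
-/

namespace Vale.Agent.H88

/-- A computable function is recursive in every oracle set (local copy, so that this file
imports only `Defs`). -/
theorem join_recursiveIn_of_computable {O : Set (ℕ →. ℕ)} {f : ℕ → ℕ} (hf : Computable f) :
    Nat.RecursiveIn O (fun n => Part.some (f n)) :=
  Nat.Partrec.recursiveIn (Partrec.nat_iff.mp hf)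

theorem join_some_bind_chi (x : ℕ) (A : ℕ → Bool) :
    (Part.some x >>= chi A) = Part.some (A x).toNat :=
  Part.bind_some x (chi A)

theorem join_even (A B : ℕ → Bool) (n : ℕ) : join A B (2 * n) = A n := by
  simp [join]

theorem join_odd (A B : ℕ → Bool) (n : ℕ) : join A B (2 * n + 1) = B n := by
  have h1 : (2 * n + 1) % 2 = 1 := by omega
  have h2 : (2 * n + 1) / 2 = n := by omega
  simp [join, h1, h2]

theorem join_double_comp : Computable (fun n : ℕ => 2 * n) :=
  (Primrec.nat_mul.comp (Primrec.const 2) Primrec.id).to_comp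

theorem join_double_succ_comp : Computable (fun n : ℕ => 2 * n + 1) :=
  (Primrec.succ.comp (Primrec.nat_mul.comp (Primrec.const 2) Primrec.id)).to_comp

theorem join_half_comp : Computable (fun n : ℕ => n / 2) :=
  (Primrec.nat_div.comp Primrec.id (Primrec.const 2)).to_comp

theorem join_left_nat (A B : ℕ → Bool) :
    Nat.RecursiveIn {chi (join A B)} (fun n : ℕ => Part.some (2 * n) >>= chi (join A B)) :=
  Nat.RecursiveIn.comp (Nat.RecursiveIn.oracle _ rfl)
    (join_recursiveIn_of_computable join_double_comp)

theorem join_right_nat (A B : ℕ → Bool) :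
    Nat.RecursiveIn {chi (join A B)} (fun n : ℕ => Part.some (2 * n + 1) >>= chi (join A B)) :=
  Nat.RecursiveIn.comp (Nat.RecursiveIn.oracle _ rfl)
    (join_recursiveIn_of_computable join_double_succ_comp)

theorem left_le_join (A B : ℕ → Bool) : TuringReducible (chi A) (chi (join A B)) := by
  refine RecursiveIn.iff_nat.mpr ((join_left_nat A B).of_eq fun n => ?_)
  rw [join_some_bind_chi, join_even]
  rfl

theorem right_le_join (A B : ℕ → Bool) : TuringReducible (chi B) (chi (join A B)) := by
  refine RecursiveIn.iff_nat.mpr ((join_right_nat A B).of_eq fun n => ?_)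
  rw [join_some_bind_chi, join_odd]
  rfl

theorem join_le {A B C : ℕ → Bool} (hA : TuringReducible (chi A) (chi C))
    (hB : TuringReducible (chi B) (chi C)) : TuringReducible (chi (join A B)) (chi C) := by
  have hA' : Nat.RecursiveIn {chi C} (chi A) := RecursiveIn.iff_nat.mp hA
  have hB' : Nat.RecursiveIn {chi C} (chi B) := RecursiveIn.iff_nat.mp hB
  have h1 : Nat.RecursiveIn {chi C} (fun n : ℕ => Part.some (n / 2) >>= chi A) :=
    Nat.RecursiveIn.comp hA' (join_recursiveIn_of_computable join_half_comp)
  have h2 : Nat.RecursiveIn {chi C} (fun n : ℕ => Part.some (n / 2) >>= chi B) :=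
    Nat.RecursiveIn.comp hB' (join_recursiveIn_of_computable join_half_comp)
  have h3 : Nat.RecursiveIn {chi C} (fun n : ℕ => Part.some n) :=
    join_recursiveIn_of_computable Computable.id
  have hsel : Computable (fun z : ℕ =>
      if z.unpair.1 % 2 = 0 then z.unpair.2.unpair.1 else z.unpair.2.unpair.2) :=
    (Primrec.ite
      (Primrec.eq.comp (Primrec.nat_mod.comp (Primrec.fst.comp Primrec.unpair) (Primrec.const 2))
        (Primrec.const 0))
      (Primrec.fst.comp (Primrec.unpair.comp (Primrec.snd.comp Primrec.unpair)))
      (Primrec.snd.comp (Primrec.unpair.comp (Primrec.snd.comp Primrec.unpair)))).to_comp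
  have h4 := Nat.RecursiveIn.comp (join_recursiveIn_of_computable hsel)
    (Nat.RecursiveIn.pair h3 (Nat.RecursiveIn.pair h1 h2))
  refine RecursiveIn.iff_nat.mpr (h4.of_eq fun n => ?_)
  simp only [join_some_bind_chi]
  simp only [Seq.seq, Part.map_eq_map, Part.map_some, Part.bind_eq_bind, Part.bind_some,
    Nat.unpair_pair]
  unfold chi join
  by_cases h : n % 2 = 0
  · simp [h]
  · simp [h]

theorem xor_le_join (A B : ℕ → Bool) :
    TuringReducible (chi (fun n => xor (A n) (B n))) (chi (join A B)) := by
  have ham2 : Computable (fun z : ℕ => (z.unpair.1 + z.unpair.2) % 2) :=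
    (Primrec.nat_mod.comp (Primrec.nat_add.comp (Primrec.fst.comp Primrec.unpair)
      (Primrec.snd.comp Primrec.unpair)) (Primrec.const 2)).to_comp
  have h4 := Nat.RecursiveIn.comp (join_recursiveIn_of_computable ham2)
    (Nat.RecursiveIn.pair (join_left_nat A B) (join_right_nat A B))
  refine RecursiveIn.iff_nat.mpr (h4.of_eq fun n => ?_)
  simp only [join_some_bind_chi, join_even, join_odd]
  simp only [Seq.seq, Part.map_eq_map, Part.map_some, Part.bind_eq_bind, Part.bind_some,
    Nat.unpair_pair]
  show Part.some (((A n).toNat + (B n).toNat) % 2) = Part.some (xor (A n) (B n)).toNat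
  cases A n <;> cases B n <;> rfl

end Vale.Agent.H88
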