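import Vale.Agent.H88.E0.Search
import Vale.Agent.H88.E0.Join
import Vale.Agent.H88.E0.Generic
import Vale.Agent.H88.LinSearch

/-!
# Generic sets do not help

If `Z` is computable from `join G X` for generically many `G`, then `Z` is computable from `X`.

Proof sketch (compare `exists_dense_code` and `baire_package` in
`Vale/Agent/H88/BaireCode.lean`).
1. Let `U m` be the dense open sets of the hypothesis.  For an oracle code `c` put
   `good c = {G | c.eval (chi (join G X)) = chi Z}` (`OCode.exists_of_recursiveIn`).  The closed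
   sets `closure (good c)` (`c : OCode`) and `(U m)ᶜ` (`m : ℕ`) cover the space, so by
   `nonempty_interior_of_iUnion_of_closed` (index type `OCode ⊕ ℕ`) one of them has nonempty
   interior; it is not a `(U m)ᶜ` because `U m` is dense.  So there are `c` and a finite
   string `σ` such that every cylinder inside `Ext σ` meets `good c`.
2. Finite oracles for the join: for finite strings `α`, `ξ` put
   `ζ α ξ = pre (join (pad α) (pad ξ)) (2 * min α.length ξ.length)`.  If `Ext α G` and
   `ξ = pre X K` then `Ext (ζ α ξ) (join G X)`.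
3. Test: `t n q ξ`, where `q` decodes to a pair `(k, ρ)`, is
   `(Code.evaln k (prog c (ζ (σ ++ ρ) ξ)) n).map (fun v => decide (v = 1))`.  It is plain
   computable (`primrec_cert` in `LinSearch.lean`, `Code.primrec_evaln`, `primrec_prog`).
   Soundness: a halting computation on `ζ (σ ++ ρ) (pre X K)` is a computation relative to
   `chi (join G X)` for some `G` in `good c` extending `σ ++ ρ` (`OCode.eval_mono`,
   `fo_le_chi`), so its value is `(Z n).toNat`.  Completeness: take `G` in `good c` extending
   `σ`; by `OCode.eval_use` the computation of `c` on `chi (join G X)` at `n` uses finitely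
   many oracle values, all below `2 * K` for a large `K`, so it is a computation on
   `fo (ζ (pre G K) (pre X K))` (`chi_le_fo_pre`), and `pre G K = σ ++ ρ` (`pre_eq_append`);
   `Code.evaln_complete` gives the step bound.
4. Conclude with `turingReducible_of_test`.
-/

namespace Vale.Agent.H88

open Nat.Partrec (Code)

/-- Baire category step: a code and a finite string below which the sets `G` with
`c.eval (chi (join G X)) = chi Z` are dense. -/
theorem genjoin_exists_dense {X Z : ℕ → Bool}
    (h : Generically (fun G => TuringReducible (chi Z) (chi (join G X)))) :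
    ∃ (c : OCode) (σ : List Bool), ∀ A, Ext σ A → ∀ K,
      ∃ B, c.eval (chi (join B X)) = chi Z ∧ ∀ i < K, B i = A i := by
  obtain ⟨U, hU1, hU2, hU3⟩ := h
  have hF : ∀ x : OCode ⊕ ℕ, IsClosed
      (Sum.elim (fun c : OCode => closure {G : ℕ → Bool | c.eval (chi (join G X)) = chi Z})
        (fun m : ℕ => (U m)ᶜ) x) := by
    rintro (c | m)
    · exact isClosed_closure
    · exact (hU1 m).isClosed_compl
  have hcov : ⋃ x : OCode ⊕ ℕ,
      (Sum.elim (fun c : OCode => closure {G : ℕ → Bool | c.eval (chi (join G X)) = chi Z})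
        (fun m : ℕ => (U m)ᶜ) x) = Set.univ := by
    refine Set.eq_univ_of_forall fun G => ?_
    by_cases hG : ∀ m, G ∈ U m
    · obtain ⟨c, hc⟩ := OCode.exists_of_recursiveIn (RecursiveIn.iff_nat.mp (hU3 G hG))
      exact Set.mem_iUnion.mpr ⟨Sum.inl c, subset_closure hc⟩
    · obtain ⟨m, hm⟩ := not_forall.mp hG
      exact Set.mem_iUnion.mpr ⟨Sum.inr m, hm⟩
  obtain ⟨x, A₀, hA₀⟩ := nonempty_interior_of_iUnion_of_closed hF hcov
  rcases x with c | m
  · obtain ⟨I, u, hu, hsub⟩ := isOpen_pi_iff.mp isOpen_interior A₀ hA₀
    refine ⟨c, pre A₀ (I.sup id + 1), fun A hA K => ?_⟩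
    have hA' : A ∈ closure {G : ℕ → Bool | c.eval (chi (join G X)) = chi Z} := by
      apply interior_subset
      apply hsub
      intro a ha
      have ha' : a < I.sup id + 1 := Nat.lt_succ_of_le (Finset.le_sup (f := id) ha)
      have h1 := hA a (by rw [length_pre]; exact ha')
      have h2 := ext_pre A₀ (I.sup id + 1) a (by rw [length_pre]; exact ha')
      rw [h1, ← h2]
      exact (hu a ha).2
    obtain ⟨B, hB1, hB2⟩ := mem_closure_iff.mp hA' _ (isOpen_agree A K) (fun i _ => rfl)
    exact ⟨B, hB2, hB1⟩
  · exfalso
    have h1 : interior ((U m)ᶜ) = ∅ := by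
      rw [interior_compl, (hU2 m).closure_eq, Set.compl_univ]
    have h2 : A₀ ∈ interior ((U m)ᶜ) := hA₀
    rw [h1] at h2
    exact h2

/-- The finite oracle for a join given by two finite strings. -/
def genjoinZeta (α ξ : List Bool) : List Bool :=
  pre (join (pad α) (pad ξ)) (2 * min α.length ξ.length)

theorem genjoin_zeta_ext {α ξ : List Bool} {G Y : ℕ → Bool} (hα : Ext α G) (hξ : Ext ξ Y) :
    Ext (genjoinZeta α ξ) (join G Y) := by
  intro i hi
  have hi' : i < 2 * min α.length ξ.length := by
    rw [genjoinZeta, length_pre] at hi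
    exact hi
  have h1 := ext_pre (join (pad α) (pad ξ)) (2 * min α.length ξ.length) i
    (by rw [length_pre]; exact hi')
  rw [genjoinZeta, ← h1]
  have h2 : i / 2 < α.length := by
    have := min_le_left α.length ξ.length
    omega
  have h3 : i / 2 < ξ.length := by
    have := min_le_right α.length ξ.length
    omega
  unfold join
  by_cases hpar : i % 2 = 0
  · rw [if_pos hpar, if_pos hpar]
    exact hα _ h2
  · rw [if_neg hpar, if_neg hpar]
    exact hξ _ h3

theorem genjoin_zeta_pre (B Y : ℕ → Bool) (K : ℕ) :
    genjoinZeta (pre B K) (pre Y K) = pre (join B Y) (2 * K) := by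
  unfold genjoinZeta
  rw [length_pre, length_pre, min_self]
  unfold pre
  apply List.map_congr_left
  intro i hi
  have hi' : i < 2 * K := List.mem_range.mp hi
  have h2 : i / 2 < K := by omega
  have hB := ext_pre B K (i / 2) (by rw [length_pre]; exact h2)
  have hY := ext_pre Y K (i / 2) (by rw [length_pre]; exact h2)
  unfold join pad
  by_cases hpar : i % 2 = 0
  · rw [if_pos hpar, if_pos hpar]
    exact hB.symm
  · rw [if_neg hpar, if_neg hpar]
    exact hY.symm

theorem genjoin_primrec_zeta :
    Primrec (fun p : List Bool × List Bool => genjoinZeta p.1 p.2) := by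
  unfold genjoinZeta pre join pad
  have hlen : Primrec (fun p : List Bool × List Bool => 2 * min p.1.length p.2.length) :=
    Primrec.nat_mul.comp (Primrec.const 2)
      (Primrec.nat_min.comp (Primrec.list_length.comp Primrec.fst)
        (Primrec.list_length.comp Primrec.snd))
  have hhalf : Primrec (fun x : (List Bool × List Bool) × ℕ => x.2 / 2) :=
    Primrec.nat_div.comp Primrec.snd (Primrec.const 2)
  have hpar : Primrec (fun x : (List Bool × List Bool) × ℕ => x.2 % 2 == 0) :=
    Primrec.beq.comp (Primrec.nat_mod.comp Primrec.snd (Primrec.const 2)) (Primrec.const 0)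
  have h1 : Primrec (fun x : (List Bool × List Bool) × ℕ => x.1.1.getD (x.2 / 2) false) :=
    (Primrec.list_getD false).comp (Primrec.fst.comp Primrec.fst) hhalf
  have h2 : Primrec (fun x : (List Bool × List Bool) × ℕ => x.1.2.getD (x.2 / 2) false) :=
    (Primrec.list_getD false).comp (Primrec.snd.comp Primrec.fst) hhalf
  have hg : Primrec₂ (fun (p : List Bool × List Bool) (i : ℕ) =>
      if i % 2 = 0 then p.1.getD (i / 2) false else p.2.getD (i / 2) false) := by
    refine (Primrec.cond hpar h1 h2).of_eq fun x => ?_
    by_cases hx : x.2 % 2 = 0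
    · simp [hx]
    · have hx' : (x.2 % 2 == 0) = false := by simpa using hx
      simp [hx, hx']
  exact Primrec.list_map (Primrec.list_range.comp hlen) hg

/-- The test: `q` codes a step bound and an extension of `σ`. -/
noncomputable def genjoinTest (c : OCode) (σ : List Bool) (n q : ℕ) (ξ : List Bool) :
    Option Bool :=
  ((Encodable.decode (α := ℕ × List Bool) q).bind fun kr =>
    Code.evaln kr.1 (prog c (genjoinZeta (σ ++ kr.2) ξ)) n).map fun v => v == 1

theorem genjoin_computable_test (c : OCode) (σ : List Bool) :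
    Computable (fun p : ℕ × ℕ × List Bool => genjoinTest c σ p.1 p.2.1 p.2.2) := by
  unfold genjoinTest
  have hdec : Primrec (fun p : ℕ × ℕ × List Bool =>
      Encodable.decode (α := ℕ × List Bool) p.2.1) :=
    Primrec.decode.comp (Primrec.fst.comp Primrec.snd)
  have hk : Primrec (fun x : (ℕ × ℕ × List Bool) × (ℕ × List Bool) => x.2.1) :=
    Primrec.fst.comp Primrec.snd
  have hn : Primrec (fun x : (ℕ × ℕ × List Bool) × (ℕ × List Bool) => x.1.1) :=
    Primrec.fst.comp Primrec.fst
  have hs : Primrec (fun x : (ℕ × ℕ × List Bool) × (ℕ × List Bool) =>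
      genjoinZeta (σ ++ x.2.2) x.1.2.2) :=
    genjoin_primrec_zeta.comp
      ((Primrec.list_append.comp (Primrec.const σ) (Primrec.snd.comp Primrec.snd)).pair
        (Primrec.snd.comp (Primrec.snd.comp Primrec.fst)))
  have hcert := primrec_cert c hk hs hn
  have hbind : Primrec (fun p : ℕ × ℕ × List Bool =>
      (Encodable.decode (α := ℕ × List Bool) p.2.1).bind fun kr =>
        Code.evaln kr.1 (prog c (genjoinZeta (σ ++ kr.2) p.2.2)) p.1) :=
    Primrec.option_bind hdec hcert.to₂
  exact (Primrec.option_map hbind
    (Primrec.beq.comp Primrec.snd (Primrec.const 1)).to₂).to_comp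

theorem reducible_of_generically_join {X Z : ℕ → Bool}
    (h : Generically (fun G => TuringReducible (chi Z) (chi (join G X)))) :
    TuringReducible (chi Z) (chi X) := by
  obtain ⟨c, σ, hd⟩ := genjoin_exists_dense h
  refine turingReducible_of_test (t := genjoinTest c σ) (genjoin_computable_test c σ) ?_ ?_
  · intro n q K v hv
    unfold genjoinTest at hv
    simp only [Option.map_eq_some_iff, Option.bind_eq_some_iff] at hv
    obtain ⟨w, ⟨kr, _, hw⟩, rfl⟩ := hv
    have hw' : w ∈ c.eval (fo (genjoinZeta (σ ++ kr.2) (pre X K))) n := by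
      rw [← eval_prog]
      exact Code.evaln_sound hw
    obtain ⟨B, hB, hBA⟩ := hd (pad (σ ++ kr.2)) (ext_pad (σ ++ kr.2)).of_append
      (σ ++ kr.2).length
    have hextB : Ext (σ ++ kr.2) B := fun i hi => hBA i hi
    have h1 : w ∈ c.eval (chi (join B X)) n :=
      OCode.eval_mono (fo_le_chi (genjoin_zeta_ext hextB (ext_pre X K))) c hw'
    rw [hB] at h1
    have h2 : w = (Z n).toNat := by simpa [chi] using h1
    rw [h2]
    cases Z n <;> rfl
  · intro n
    obtain ⟨B, hB, hBA⟩ := hd (pad σ) (ext_pad σ) σ.length
    have hextB : Ext σ B := fun i hi => hBA i hi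
    have hmem : (Z n).toNat ∈ c.eval (chi (join B X)) n := by
      rw [hB]
      simp [chi]
    obtain ⟨S, hS⟩ := OCode.eval_use (chi (join B X)) c n _ hmem
    obtain ⟨ρ, hρ⟩ := pre_eq_append hextB (le_max_right (S.sup id + 1) σ.length)
    have h1 : (Z n).toNat ∈
        c.eval (fo (genjoinZeta (σ ++ ρ) (pre X (max (S.sup id + 1) σ.length)))) n := by
      rw [← hρ, genjoin_zeta_pre]
      apply hS
      intro i hi w hw
      have hiK : i < max (S.sup id + 1) σ.length :=
        lt_of_lt_of_le (Nat.lt_succ_of_le (Finset.le_sup (f := id) hi)) (le_max_left _ _)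
      exact chi_le_fo_pre (join B X) _ i (by omega) w hw
    rw [← eval_prog] at h1
    obtain ⟨k, hk⟩ := Code.evaln_complete.mp h1
    refine ⟨Encodable.encode (k, ρ), max (S.sup id + 1) σ.length, ?_⟩
    unfold genjoinTest
    rw [Encodable.encodek]
    simp only [Option.bind_some]
    rw [Option.mem_def.mp hk]
    rfl

end Vale.Agent.H88
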