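import Vale.Agent.H88.E0.Generic

/-!
# Monotonization of a sound test by searching initial segments

`monoTest r n k ρ` is the first success of `r n k` on the initial segments `ρ.take j`,
`j ≤ ρ.length`.

Sketches for the four fields of `GoodTest Θ (monoTest r)`.
* `comp`: `Primrec.listFilterMap`, `Primrec.list_range`, `Primrec.list_take`,
  `Primrec.list_head?`, then `Primrec.to_comp`.
* `sound`: a success of `monoTest` is a success of `r` on some `ρ.take j`, and `Ext ρ B`
  implies `Ext (ρ.take j) B`.
* `mono`: if `ρ <+: ρ'` and `j ≤ ρ.length` then `ρ.take j = ρ'.take j`; use `hmono`.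
* `complete`: `hcomplete.mono`, with `j = K` (`(pre B K).take K = pre B K`).
-/

namespace Vale.Agent.H88

/-- Success of the monotonized test: some initial segment is accepted by the raw test. -/
theorem monoE0_isSome_iff (r : ℕ → ℕ → List Bool → Option Bool) (n k : ℕ) (ρ : List Bool) :
    (monoTest r n k ρ).isSome ↔ ∃ j, j ≤ ρ.length ∧ (r n k (ρ.take j)).isSome := by
  unfold monoTest
  rw [List.isSome_head?, Ne, List.filterMap_eq_nil_iff]
  constructor
  · intro h
    by_contra hcon
    apply h
    intro j hj
    rw [List.mem_range] at hj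
    by_contra hne
    exact hcon ⟨j, Nat.lt_succ_iff.mp hj, Option.isSome_iff_ne_none.mpr hne⟩
  · rintro ⟨j, hj, hs⟩ h
    have h1 := h j (List.mem_range.mpr (Nat.lt_succ_of_le hj))
    rw [h1] at hs
    simp at hs

/-- A value of the monotonized test is a value of the raw test on an initial segment. -/
theorem monoE0_eq_some (r : ℕ → ℕ → List Bool → Option Bool) (n k : ℕ) (ρ : List Bool) (v : Bool)
    (h : monoTest r n k ρ = some v) : ∃ j, r n k (ρ.take j) = some v := by
  unfold monoTest at h
  have hmem := List.mem_of_head? h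
  rw [List.mem_filterMap] at hmem
  obtain ⟨j, _, hj⟩ := hmem
  exact ⟨j, hj⟩

theorem goodTest_monoTest {Θ : (ℕ → Bool) → (ℕ → Bool)} {r : ℕ → ℕ → List Bool → Option Bool}
    (hcomp : Primrec (fun p : ℕ × ℕ × List Bool => r p.1 p.2.1 p.2.2))
    (hsound : ∀ n k ρ v, r n k ρ = some v → ∀ B, Ext ρ B → Θ B n = v)
    (hmono : ∀ n k k' ρ, k ≤ k' → (r n k ρ).isSome → (r n k' ρ).isSome)
    (hcomplete : Generically (fun B => ∀ n, ∃ k K, (r n k (pre B K)).isSome)) :
    GoodTest Θ (monoTest r) := by
  refine ⟨?_, ?_, ?_, ?_⟩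
  · -- computability
    have hg : Primrec₂ (fun (p : ℕ × ℕ × List Bool) (j : ℕ) => r p.1 p.2.1 (p.2.2.take j)) := by
      have h1 : Primrec (fun q : (ℕ × ℕ × List Bool) × ℕ =>
          (q.1.1, q.1.2.1, q.1.2.2.take q.2)) :=
        Primrec.pair (Primrec.fst.comp Primrec.fst)
          (Primrec.pair (Primrec.fst.comp (Primrec.snd.comp Primrec.fst))
            (Primrec.list_take.comp Primrec.snd
              (Primrec.snd.comp (Primrec.snd.comp Primrec.fst))))
      exact hcomp.comp h1
    have hf : Primrec (fun p : ℕ × ℕ × List Bool => List.range (p.2.2.length + 1)) :=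
      Primrec.list_range.comp
        (Primrec.succ.comp (Primrec.list_length.comp (Primrec.snd.comp Primrec.snd)))
    have hfm := Primrec.listFilterMap hf hg
    exact (Primrec.list_head?.comp hfm).to_comp
  · -- soundness
    intro n k ρ v h B hB
    obtain ⟨j, hj⟩ := monoE0_eq_some r n k ρ v h
    refine hsound n k (ρ.take j) v hj B ?_
    have hB' : Ext (ρ.take j ++ ρ.drop j) B := by
      rw [List.take_append_drop]
      exact hB
    exact hB'.of_append
  · -- monotonicity
    intro n k k' ρ ρ' hk hpre h
    rw [monoE0_isSome_iff] at h ⊢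
    obtain ⟨j, hj, hs⟩ := h
    obtain ⟨τ, rfl⟩ := hpre
    refine ⟨j, ?_, ?_⟩
    · rw [List.length_append]
      omega
    · rw [List.take_append_of_le_length hj]
      exact hmono n k k' _ hk hs
  · -- generic completeness
    refine hcomplete.mono (fun B hB n => ?_)
    obtain ⟨k, K, hs⟩ := hB n
    refine ⟨k, K, ?_⟩
    rw [monoE0_isSome_iff]
    refine ⟨K, ?_, ?_⟩
    · rw [length_pre]
    · have hK : (pre B K).take K = pre B K := by
        apply List.take_of_length_le
        rw [length_pre]
      rw [hK]
      exact hs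

end Vale.Agent.H88
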