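import Vale.Agent.H88.E0.Raw
import Vale.Agent.H88.E0.MonoTest

/-!
# Existence of a good test

A continuous, uniformly invariant, degree-decreasing map of Cantor space has a good test:
a computable test on finite strings that is sound, monotone and generically complete.
-/

namespace Vale.Agent.H88

theorem exists_goodTest (Θ : (ℕ → Bool) → (ℕ → Bool)) (hc : Continuous Θ) (hE : UnifE0 Θ)
    (hT : ∀ B, TuringReducible (chi (Θ B)) (chi B)) : ∃ t, GoodTest Θ t := by
  have hcont : ∀ n, ∃ K, ∀ A B : ℕ → Bool, (∀ i < K, A i = B i) → Θ A n = Θ B n := by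
    intro n
    obtain ⟨K, hK⟩ := exists_modulus (f := fun A => Θ A n) ((continuous_apply n).comp hc)
    exact ⟨K, fun A B h => hK A B h⟩
  obtain ⟨c, τ, hs, hd⟩ := baire_package Θ hcont hT
  obtain ⟨n₀, hn₀⟩ := hE τ.length
  choose Kf hKf using hcont
  have hK0 : ∀ n, n < n₀ → ∀ X Y : ℕ → Bool,
      (∀ m, m < (Finset.range n₀).sup Kf → X m = Y m) → Θ X n = Θ Y n := by
    intro n hn X Y h
    exact hKf n X Y (fun i hi => h i (lt_of_lt_of_le hi
      (Finset.le_sup (f := Kf) (Finset.mem_range.mpr hn))))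
  exact ⟨monoTest (rawTest Θ c τ n₀ ((Finset.range n₀).sup Kf)),
    goodTest_monoTest (rawTest_primrec Θ c τ n₀ _)
      (rawTest_sound Θ c τ n₀ _ hs hn₀ hK0) (rawTest_mono Θ c τ n₀ _)
      (rawTest_complete Θ c τ n₀ _ hd)⟩

end Vale.Agent.H88
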