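import Vale.Agent.H88.E0.Defs

/-!
# Finite approximations of the iterates of a map with a good test

`stepAux t k ρ m`: the values `t 0 k ρ, t 1 k ρ, ...` found below `m`, stopping at the first
failure; `stepList t k ρ = stepAux t k ρ k`; `iterList t k y ρ` applies `stepList t k` to `ρ`
`y` times.

Sketches.
* `computable_iterList`: `Computable.nat_rec` twice (compare `computable_flatMap` in
  `Vale/Agent/H88/LinHomeo.lean`), `Computable.option_casesOn` or `Computable.cond`.
* `iterList_sound`: `Ext (stepAux t k ρ m) (Θ B)` whenever `Ext ρ B` (induction on `m`, field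
  `sound`); then induction on `y` with `Function.iterate_succ_apply'`.
* `iterList_complete`: prove the stronger statement
  `∀ y ℓ, ∃ k₀ K₀, ∀ k ≥ k₀, ∀ K ≥ K₀, ℓ ≤ (iterList t k y (pre B K)).length` by induction
  on `y`.  Ingredients: (a) if `ℓ ≤ k` and `(t n k ρ).isSome` for all `n < ℓ` then
  `ℓ ≤ (stepList t k ρ).length`; (b) for `Z = Θ^[y] B` and `ℓ`, by `hB` and the field `mono`
  there are `k₁ K₁` with `(t n k ρ).isSome` for all `n < ℓ`, `k ≥ k₁` and all `ρ` with
  `pre Z K₁ <+: ρ`; (c) by `iterList_sound`, `iterList t k y (pre B K)` is an initial segment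
  of `Z`, so if its length is at least `K₁` then `pre Z K₁ <+:` it.
-/

namespace Vale.Agent.H88

theorem e0iter1_stepAux_succ (t : ℕ → ℕ → List Bool → Option Bool) (k : ℕ) (ρ : List Bool)
    (m : ℕ) : stepAux t k ρ (m + 1) =
      if (stepAux t k ρ m).length = m then
        (match t m k ρ with
          | some b => stepAux t k ρ m ++ [b]
          | none => stepAux t k ρ m)
      else stepAux t k ρ m := rfl

theorem e0iter1_computable_stepAux {t : ℕ → ℕ → List Bool → Option Bool}
    (ht : Computable (fun p : ℕ × ℕ × List Bool => t p.1 p.2.1 p.2.2)) :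
    Computable (fun p : ℕ × ℕ × List Bool => stepAux t p.2.1 p.2.2 p.1) := by
  -- the step function of `p` and of the pair of `j` and `IH`
  have hj : Computable (fun x : (ℕ × ℕ × List Bool) × (ℕ × List Bool) => x.2.1) :=
    Computable.fst.comp Computable.snd
  have hk : Computable (fun x : (ℕ × ℕ × List Bool) × (ℕ × List Bool) => x.1.2.1) :=
    Computable.fst.comp (Computable.snd.comp Computable.fst)
  have hρ : Computable (fun x : (ℕ × ℕ × List Bool) × (ℕ × List Bool) => x.1.2.2) :=
    Computable.snd.comp (Computable.snd.comp Computable.fst)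
  have hIH : Computable (fun x : (ℕ × ℕ × List Bool) × (ℕ × List Bool) => x.2.2) :=
    Computable.snd.comp Computable.snd
  have hc : Computable (fun x : (ℕ × ℕ × List Bool) × (ℕ × List Bool) =>
      decide (x.2.2.length = x.2.1)) := by
    have h1 : Primrec (fun x : (ℕ × ℕ × List Bool) × (ℕ × List Bool) => x.2.2.length) :=
      Primrec.list_length.comp (Primrec.snd.comp Primrec.snd)
    have h2 : Primrec (fun x : (ℕ × ℕ × List Bool) × (ℕ × List Bool) => x.2.1) :=
      Primrec.fst.comp Primrec.snd
    have h3 := (PrimrecPred.decide (Primrec.eq.comp h1 h2)).to_comp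
    exact h3
  have ho : Computable (fun x : (ℕ × ℕ × List Bool) × (ℕ × List Bool) =>
      t x.2.1 x.1.2.1 x.1.2.2) := by
    have h := ht.comp (hj.pair (hk.pair hρ))
    exact h
  have hcase : Computable (fun x : (ℕ × ℕ × List Bool) × (ℕ × List Bool) =>
      Option.casesOn (motive := fun _ => List Bool) (t x.2.1 x.1.2.1 x.1.2.2) x.2.2
        (fun b => x.2.2 ++ [b])) := by
    have h5 : Computable₂ (fun (x : (ℕ × ℕ × List Bool) × (ℕ × List Bool)) (b : Bool) =>
        x.2.2 ++ [b]) := by
      have h6 := Computable.list_concat.comp (hIH.comp Computable.fst)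
        (Computable.snd (α := (ℕ × ℕ × List Bool) × (ℕ × List Bool)) (β := Bool))
      exact h6
    have h4 := Computable.option_casesOn ho hIH h5
    exact h4
  have hstep : Computable₂ (fun (p : ℕ × ℕ × List Bool) (x : ℕ × List Bool) =>
      bif decide (x.2.length = x.1) then
        Option.casesOn (motive := fun _ => List Bool) (t x.1 p.2.1 p.2.2) x.2
          (fun b => x.2 ++ [b])
      else x.2) := by
    have h7 := Computable.cond hc hcase hIH
    exact h7
  have h := Computable.nat_rec (Computable.fst (α := ℕ) (β := ℕ × List Bool))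
    (Computable.const ([] : List Bool)) hstep
  refine h.of_eq fun p => ?_
  obtain ⟨m, k, ρ⟩ := p
  show Nat.rec (motive := fun _ => List Bool) [] (fun j IH =>
      bif decide (IH.length = j) then
        Option.casesOn (motive := fun _ => List Bool) (t j k ρ) IH (fun b => IH ++ [b])
      else IH) m = stepAux t k ρ m
  induction m with
  | zero => rfl
  | succ j ih =>
    show (bif decide ((Nat.rec (motive := fun _ => List Bool) [] (fun j IH =>
      bif decide (IH.length = j) then
        Option.casesOn (motive := fun _ => List Bool) (t j k ρ) IH (fun b => IH ++ [b])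
      else IH) j).length = j) then _ else _) = _
    rw [ih, e0iter1_stepAux_succ]
    by_cases h1 : (stepAux t k ρ j).length = j
    · rw [if_pos h1]
      simp only [h1, decide_true, cond_true]
      cases t j k ρ <;> rfl
    · rw [if_neg h1]
      simp only [h1, decide_false, cond_false]

theorem computable_iterList {t : ℕ → ℕ → List Bool → Option Bool}
    (ht : Computable (fun p : ℕ × ℕ × List Bool => t p.1 p.2.1 p.2.2)) :
    Computable (fun p : ℕ × ℕ × List Bool => iterList t p.2.1 p.1 p.2.2) := by
  have haux := e0iter1_computable_stepAux ht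
  -- the step function of `p` and of the pair of `j` and `IH`; `stepList t k IH = stepAux t k IH k`
  have hk : Computable (fun x : (ℕ × ℕ × List Bool) × (ℕ × List Bool) => x.1.2.1) :=
    Computable.fst.comp (Computable.snd.comp Computable.fst)
  have hIH : Computable (fun x : (ℕ × ℕ × List Bool) × (ℕ × List Bool) => x.2.2) :=
    Computable.snd.comp Computable.snd
  have hstep : Computable₂ (fun (p : ℕ × ℕ × List Bool) (x : ℕ × List Bool) =>
      stepAux t p.2.1 x.2 p.2.1) := by
    have h8 := haux.comp (hk.pair (hk.pair hIH))
    exact h8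
  have h := Computable.nat_rec (Computable.fst (α := ℕ) (β := ℕ × List Bool))
    (Computable.snd.comp (Computable.snd (α := ℕ) (β := ℕ × List Bool))) hstep
  refine h.of_eq fun p => ?_
  obtain ⟨y, k, ρ⟩ := p
  show Nat.rec (motive := fun _ => List Bool) ρ (fun _ IH => stepAux t k IH k) y =
    iterList t k y ρ
  induction y with
  | zero => rfl
  | succ j ih =>
    show stepAux t k (Nat.rec (motive := fun _ => List Bool) ρ
      (fun _ IH => stepAux t k IH k) j) k = stepList t k (iterList t k j ρ)
    rw [ih]
    rfl

theorem e0iter1_stepAux_sound {Θ : (ℕ → Bool) → (ℕ → Bool)}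
    {t : ℕ → ℕ → List Bool → Option Bool} (h : GoodTest Θ t) (k : ℕ) (ρ : List Bool)
    (B : ℕ → Bool) (hB : Ext ρ B) (m : ℕ) : Ext (stepAux t k ρ m) (Θ B) := by
  induction m with
  | zero =>
    intro i hi
    exact absurd hi (Nat.not_lt_zero i)
  | succ j ih =>
    rw [e0iter1_stepAux_succ]
    by_cases h1 : (stepAux t k ρ j).length = j
    · rw [if_pos h1]
      cases hb : t j k ρ with
      | none => exact ih
      | some b =>
        show Ext (stepAux t k ρ j ++ [b]) (Θ B)
        intro i hi
        rw [List.length_append, List.length_singleton, h1] at hi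
        rcases Nat.lt_or_ge i j with hlt | hge
        · have hi' : i < (stepAux t k ρ j).length := by omega
          rw [ih i hi']
          simp [List.getD_eq_getElem?_getD, List.getElem?_append_left hi']
        · have e : i = j := by omega
          subst e
          rw [h.sound i k ρ b hb B hB]
          simp [List.getD_eq_getElem?_getD, h1]
    · rw [if_neg h1]
      exact ih

theorem iterList_sound {Θ : (ℕ → Bool) → (ℕ → Bool)} {t : ℕ → ℕ → List Bool → Option Bool}
    (h : GoodTest Θ t) (y k : ℕ) (ρ : List Bool) (B : ℕ → Bool) (hB : Ext ρ B) :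
    Ext (iterList t k y ρ) (Θ^[y] B) := by
  induction y with
  | zero => exact hB
  | succ j ih =>
    rw [Function.iterate_succ_apply']
    exact e0iter1_stepAux_sound h k (iterList t k j ρ) (Θ^[j] B) ih k

theorem iterList_complete {Θ : (ℕ → Bool) → (ℕ → Bool)} {t : ℕ → ℕ → List Bool → Option Bool}
    (h : GoodTest Θ t) (B : ℕ → Bool)
    (hB : ∀ y n, ∃ k K, (t n k (pre (Θ^[y] B) K)).isSome) (y ℓ : ℕ) :
    ∃ k K, ℓ ≤ (iterList t k y (pre B K)).length := by
  have hstep : ∀ (k : ℕ) (ρ : List Bool) (m : ℕ), stepAux t k ρ (m + 1) =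
      if (stepAux t k ρ m).length = m then
        (match t m k ρ with
          | some b => stepAux t k ρ m ++ [b]
          | none => stepAux t k ρ m)
      else stepAux t k ρ m := fun _ _ _ => rfl
  have hmono1 : ∀ (k : ℕ) (ρ : List Bool) (m : ℕ),
      (stepAux t k ρ m).length ≤ (stepAux t k ρ (m + 1)).length := by
    intro k ρ m
    rw [hstep]
    split_ifs with h1
    · cases t m k ρ with
      | none => exact le_rfl
      | some b => simp
    · exact le_rfl
  have hmono : ∀ (k : ℕ) (ρ : List Bool) (m m' : ℕ), m ≤ m' →
      (stepAux t k ρ m).length ≤ (stepAux t k ρ m').length := by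
    intro k ρ m m' hmm
    induction m' with
    | zero =>
      have e : m = 0 := by omega
      rw [e]
    | succ j ih =>
      rcases Nat.lt_or_ge m (j + 1) with hlt | hge
      · exact le_trans (ih (by omega)) (hmono1 k ρ j)
      · have e : m = j + 1 := by omega
        rw [e]
  have hfull : ∀ (k : ℕ) (ρ : List Bool) (m : ℕ), (∀ n, n < m → (t n k ρ).isSome) →
      (stepAux t k ρ m).length = m := by
    intro k ρ m
    induction m with
    | zero =>
      intro _
      rfl
    | succ j ih =>
      intro hsome
      have hj := ih (fun n hn => hsome n (by omega))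
      obtain ⟨b, hb⟩ := Option.isSome_iff_exists.mp (hsome j (by omega))
      rw [hstep, if_pos hj, hb]
      simp [hj]
  have hpre : ∀ (Z : ℕ → Bool) (ρ : List Bool) (K : ℕ), Ext ρ Z → K ≤ ρ.length →
      pre Z K <+: ρ := by
    intro Z ρ K hext hK
    have e : pre Z K = ρ.take K := by
      apply List.ext_getElem
      · rw [length_pre, List.length_take]
        omega
      · intro i h1 h2
        rw [length_pre] at h1
        have hi : i < ρ.length := by omega
        have := hext i hi
        simp [pre, this, List.getD_eq_getElem?_getD, hi]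
    rw [e]
    exact List.take_prefix K ρ
  have main : ∀ y ℓ, ∃ k₀ K₀, ∀ k, k₀ ≤ k → ∀ K, K₀ ≤ K →
      ℓ ≤ (iterList t k y (pre B K)).length := by
    intro y
    induction y with
    | zero =>
      intro ℓ
      refine ⟨0, ℓ, fun k _ K hK => ?_⟩
      show ℓ ≤ (pre B K).length
      rw [length_pre]
      exact hK
    | succ y ih =>
      intro ℓ
      choose kf Kf hf using hB y
      obtain ⟨k₀, K₀, hk⟩ := ih ((Finset.range ℓ).sup Kf)
      refine ⟨k₀ + ℓ + (Finset.range ℓ).sup kf, K₀, fun k hkk K hKK => ?_⟩
      have hlen := hk k (by omega) K hKK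
      have hext : Ext (iterList t k y (pre B K)) (Θ^[y] B) :=
        iterList_sound h y k (pre B K) B (ext_pre B K)
      have hsome : ∀ n, n < ℓ → (t n k (iterList t k y (pre B K))).isSome := by
        intro n hn
        have hn' : n ∈ Finset.range ℓ := Finset.mem_range.mpr hn
        have h1 : kf n ≤ k := le_trans (Finset.le_sup (f := kf) hn') (by omega)
        have h2 : Kf n ≤ (iterList t k y (pre B K)).length :=
          le_trans (Finset.le_sup (f := Kf) hn') hlen
        exact h.mono n (kf n) k _ _ h1 (hpre _ _ _ hext h2) (hf n)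
      show ℓ ≤ (stepAux t k (iterList t k y (pre B K)) k).length
      have h3 := hfull k (iterList t k y (pre B K)) ℓ hsome
      have h4 := hmono k (iterList t k y (pre B K)) ℓ k (by omega)
      omega
  obtain ⟨k₀, K₀, hk⟩ := main y ℓ
  exact ⟨k₀, K₀, hk k₀ le_rfl K₀ le_rfl⟩

end Vale.Agent.H88
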