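import Vale.Agent.H88.E0.Defs

/-!
# Oracle search normal form

If a plain computable test on finite initial segments of `X` is sound for `g` and finds a
value for every argument, then `g` is computable from `X`.

Proof sketch (all inside `Nat.RecursiveIn {chi X}`, compare `recursiveIn_par` in
`Vale/Agent/H88/OracleLin.lean` for the style; `recursiveIn_of_computable` there lifts plain
computable functions):
1. `K ↦ Encodable.encode (pre X K)` is recursive in `chi X`, by `Nat.RecursiveIn.prec`
   (`pre X (K+1) = pre X K ++ [X K]`, the step queries the oracle at `K`).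
2. `F (pair n m) = if (t n m.unpair.1 (pre X m.unpair.2)).isSome then 0 else 1` is recursive in
   `chi X` (plain computable function of `n`, `m` and the code of `pre X m.unpair.2`).
3. `n ↦ Nat.rfind (fun m => (· = 0) <$> F (pair n m))` is recursive in `chi X`
   (`Nat.RecursiveIn.rfind`), it is total by `hcomplete`; its value `m` gives a success
   `t n m.unpair.1 (pre X m.unpair.2) = some v` with `v = g n` by `hsound`.
4. Compose once more to output `(g n).toNat`; finish with `Nat.RecursiveIn.of_eq` and
   `RecursiveIn.iff_nat`.
-/

namespace Vale.Agent.H88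

/-- Plain computable functions are recursive in every oracle set. -/
theorem search_of_computable {O : Set (ℕ →. ℕ)} {f : ℕ → ℕ} (hf : Computable f) :
    Nat.RecursiveIn O (fun n => Part.some (f n)) :=
  Nat.Partrec.recursiveIn (Partrec.nat_iff.mp hf)

theorem search_bind_chi (x : ℕ) (A : ℕ → Bool) :
    (Part.some x >>= chi A) = Part.some (A x).toNat :=
  Part.bind_some x (chi A)

theorem search_pair_some (a b : ℕ) :
    (Nat.pair <$> (Part.some a : Part ℕ) <*> Part.some b) = Part.some (Nat.pair a b) := by
  simp [Seq.seq]

/-- Composition of total functions recursive in an oracle set. -/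
theorem search_comp {O : Set (ℕ →. ℕ)} {f g : ℕ → ℕ}
    (hf : Nat.RecursiveIn O (fun n => Part.some (f n)))
    (hg : Nat.RecursiveIn O (fun n => Part.some (g n))) :
    Nat.RecursiveIn O (fun n => Part.some (f (g n))) := by
  refine (Nat.RecursiveIn.comp hf hg).of_eq fun n => ?_
  simp

/-- Pairing of total functions recursive in an oracle set. -/
theorem search_pair {O : Set (ℕ →. ℕ)} {f g : ℕ → ℕ}
    (hf : Nat.RecursiveIn O (fun n => Part.some (f n)))
    (hg : Nat.RecursiveIn O (fun n => Part.some (g n))) :
    Nat.RecursiveIn O (fun n => Part.some (Nat.pair (f n) (g n))) := by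
  refine (Nat.RecursiveIn.pair hf hg).of_eq fun n => ?_
  simp [Seq.seq]

/-- One step of the recursion computing the code of an initial segment: append one bit to a
coded string. -/
def searchStep (z : ℕ) : ℕ :=
  Encodable.encode
    (((Encodable.decode (α := List Bool) z.unpair.1).getD []) ++ [decide (z.unpair.2 = 1)])

theorem search_step_computable : Computable searchStep := by
  unfold searchStep
  have h1 : Primrec (fun z : ℕ => (Encodable.decode (α := List Bool) z.unpair.1).getD []) :=
    Primrec.option_getD.comp (Primrec.decode.comp (Primrec.fst.comp Primrec.unpair))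
      (Primrec.const [])
  have h2 : Primrec (fun z : ℕ => decide (z.unpair.2 = 1)) :=
    (Primrec.eq.comp (Primrec.snd.comp Primrec.unpair) (Primrec.const 1)).decide
  have h3 : Primrec (fun z : ℕ => [decide (z.unpair.2 = 1)]) :=
    Primrec.list_cons.comp h2 (Primrec.const [])
  exact (Primrec.encode.comp (Primrec.list_append.comp h1 h3)).to_comp

theorem search_step_eval (l : List Bool) (b : Bool) :
    searchStep (Nat.pair (Encodable.encode l) b.toNat) = Encodable.encode (l ++ [b]) := by
  unfold searchStep
  rw [Nat.unpair_pair]
  simp only [Encodable.encodek, Option.getD_some]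
  cases b <;> rfl

theorem search_pre_succ (X : ℕ → Bool) (K : ℕ) : pre X (K + 1) = pre X K ++ [X K] := by
  simp [pre, List.range_succ]

/-- The code of the initial segment of `X` of length `K` is recursive in `X`. -/
theorem search_pre_rec (X : ℕ → Bool) :
    Nat.RecursiveIn {chi X} (fun K => Part.some (Encodable.encode (pre X K))) := by
  have hidx : Computable (fun q : ℕ => q.unpair.2.unpair.1) :=
    Computable.fst.comp (Computable.unpair.comp (Computable.snd.comp Computable.unpair))
  have hprj : Computable (fun q : ℕ => q.unpair.2.unpair.2) :=
    Computable.snd.comp (Computable.unpair.comp (Computable.snd.comp Computable.unpair))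
  have hq : Nat.RecursiveIn {chi X} (fun q : ℕ => Part.some (q.unpair.2.unpair.1) >>= chi X) :=
    Nat.RecursiveIn.comp (Nat.RecursiveIn.oracle _ rfl) (search_of_computable hidx)
  have hh := Nat.RecursiveIn.comp (search_of_computable search_step_computable)
    (Nat.RecursiveIn.pair (search_of_computable hprj) hq)
  have hG := Nat.RecursiveIn.prec (Nat.RecursiveIn.zero (O := {chi X})) hh
  have hpair0 : Computable (fun K : ℕ => Nat.pair 0 K) :=
    Primrec₂.natPair.to_comp.comp (Computable.const 0) Computable.id
  have hF := Nat.RecursiveIn.comp hG (search_of_computable hpair0)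
  refine hF.of_eq fun K => ?_
  have key : ∀ m : ℕ, (Nat.rec (motive := fun _ => Part ℕ) 0 (fun y IH =>
      IH.bind fun i => (Nat.pair <$> Part.some i <*>
        (Part.some y >>= chi X)).bind fun z => Part.some (searchStep z)) m) =
      Part.some (Encodable.encode (pre X m)) := by
    intro m
    induction m with
    | zero => simp [pre]; rfl
    | succ m ih =>
      simp only [ih]
      rw [Part.bind_some, search_bind_chi, search_pair_some, Part.bind_some, search_step_eval,
        search_pre_succ]
  simp only [Part.bind_eq_bind, Part.bind_some, Nat.unpair_pair]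
  exact key K

/-- The plain evaluator of a test on coded arguments. -/
def searchT (t : ℕ → ℕ → List Bool → Option Bool) (z : ℕ) : Option Bool :=
  t z.unpair.1 z.unpair.2.unpair.1 ((Encodable.decode (α := List Bool) z.unpair.2.unpair.2).getD [])

theorem search_T_computable {t : ℕ → ℕ → List Bool → Option Bool}
    (ht : Computable (fun p : ℕ × ℕ × List Bool => t p.1 p.2.1 p.2.2)) :
    Computable (searchT t) := by
  unfold searchT
  have h1 : Computable (fun z : ℕ => z.unpair.1) := Computable.fst.comp Computable.unpair
  have h2 : Computable (fun z : ℕ => z.unpair.2.unpair.1) :=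
    Computable.fst.comp (Computable.unpair.comp (Computable.snd.comp Computable.unpair))
  have h3 : Computable (fun z : ℕ =>
      (Encodable.decode (α := List Bool) z.unpair.2.unpair.2).getD []) :=
    (Primrec.option_getD.comp (Primrec.decode.comp (Primrec.snd.comp (Primrec.unpair.comp
      (Primrec.snd.comp Primrec.unpair)))) (Primrec.const [])).to_comp
  exact ht.comp (Computable.pair h1 (Computable.pair h2 h3))

/-- The coded argument of the test: from `pair n (pair q K)` to
`pair n (pair q (code of pre X K))`. -/
def searchE (X : ℕ → Bool) (p : ℕ) : ℕ :=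
  Nat.pair p.unpair.1 (Nat.pair p.unpair.2.unpair.1
    (Encodable.encode (pre X p.unpair.2.unpair.2)))

theorem search_E_rec (X : ℕ → Bool) :
    Nat.RecursiveIn {chi X} (fun p => Part.some (searchE X p)) := by
  have h1 : Computable (fun z : ℕ => z.unpair.1) := Computable.fst.comp Computable.unpair
  have h2 : Computable (fun z : ℕ => z.unpair.2.unpair.1) :=
    Computable.fst.comp (Computable.unpair.comp (Computable.snd.comp Computable.unpair))
  have h3 : Computable (fun z : ℕ => z.unpair.2.unpair.2) :=
    Computable.snd.comp (Computable.unpair.comp (Computable.snd.comp Computable.unpair))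
  exact search_pair (search_of_computable h1) (search_pair (search_of_computable h2)
    (search_comp (search_pre_rec X) (search_of_computable h3)))

theorem search_T_E (t : ℕ → ℕ → List Bool → Option Bool) (X : ℕ → Bool) (p : ℕ) :
    searchT t (searchE X p) = t p.unpair.1 p.unpair.2.unpair.1 (pre X p.unpair.2.unpair.2) := by
  simp [searchT, searchE]

/-- Oracle search: a computable test `t n q ξ` on finite strings `ξ`; if every success on a
initial segment of `X` gives the value `g n`, and for every `n` some `q` and some initial
segment of `X` succeed,
then `g` is Turing reducible to `X`. -/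
theorem turingReducible_of_test {X g : ℕ → Bool} {t : ℕ → ℕ → List Bool → Option Bool}
    (ht : Computable (fun p : ℕ × ℕ × List Bool => t p.1 p.2.1 p.2.2))
    (hsound : ∀ n q K v, t n q (pre X K) = some v → v = g n)
    (hcomplete : ∀ n, ∃ q K, (t n q (pre X K)).isSome) :
    TuringReducible (chi g) (chi X) := by
  have hT := search_T_computable ht
  have hF0 : Computable (fun z : ℕ => if (searchT t z).isSome then 0 else 1) :=
    Computable.cond (Primrec.option_isSome.to_comp.comp hT) (Computable.const 0)
      (Computable.const 1) |>.of_eq fun z => by cases (searchT t z).isSome <;> rfl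
  have hV0 : Computable (fun z : ℕ => ((searchT t z).getD false).toNat) :=
    ((Primrec.dom_bool Bool.toNat).to_comp).comp
      (Primrec.option_getD.to_comp.comp hT (Computable.const false))
  have hF := search_comp (search_of_computable hF0) (search_E_rec X)
  have hV := search_comp (search_of_computable hV0) (search_E_rec X)
  have hR := Nat.RecursiveIn.rfind hF
  have hfin := Nat.RecursiveIn.comp hV
    (Nat.RecursiveIn.pair (search_of_computable Computable.id) hR)
  refine RecursiveIn.iff_nat.mpr (hfin.of_eq fun n => ?_)
  -- the search halts
  have hdom : (Nat.rfind fun m => (fun x => decide (x = 0)) <$>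
      (Part.some (if (searchT t (searchE X (Nat.pair n m))).isSome then 0 else 1) :
        Part ℕ)).Dom := by
    obtain ⟨q, K, hqK⟩ := hcomplete n
    refine Nat.rfind_dom.mpr ⟨Nat.pair q K, ?_, fun _ => trivial⟩
    rw [search_T_E]
    simp only [Nat.unpair_pair]
    simp [hqK]
  obtain ⟨m₀, hm₀⟩ := Part.dom_iff_mem.mp hdom
  have hspec := Nat.rfind_spec hm₀
  rw [search_T_E] at hspec
  simp only [Nat.unpair_pair] at hspec
  have hsome : (t n m₀.unpair.1 (pre X m₀.unpair.2)).isSome = true := by
    by_contra hc
    simp [hc] at hspec
  obtain ⟨v, hv⟩ := Option.isSome_iff_exists.mp hsome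
  have hvg := hsound n _ _ v hv
  have hval : ((searchT t (searchE X (Nat.pair n m₀))).getD false).toNat = (g n).toNat := by
    rw [search_T_E]
    simp only [Nat.unpair_pair]
    rw [hv, Option.getD_some, hvg]
  rw [Part.eq_some_iff.mpr hm₀]
  show ((Nat.pair <$> (Part.some n : Part ℕ) <*> Part.some m₀) >>= fun p =>
    (Part.some ((searchT t (searchE X p)).getD false).toNat : Part ℕ)) = chi g n
  rw [search_pair_some]
  show (Part.some (Nat.pair n m₀)).bind (fun p =>
    (Part.some ((searchT t (searchE X p)).getD false).toNat : Part ℕ)) = chi g n
  rw [Part.bind_some, hval]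
  rfl

end Vale.Agent.H88
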