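import Vale.Agent.H88.E0.Defs

/-!
# The shift map and uniform invariance

`shift X n = X (n + 1)`; `UnifE0 F`: for every `a` there is `b` such that sets agreeing from
`a` on have images agreeing from `b` on.

Sketches.
* `continuous_shift`: `continuous_pi`, `continuous_apply`.
* `isOpenMap_shift`: `X ↦ (X 0, shift X)` is a homeomorphism onto `Bool × (ℕ → Bool)` (inverse
  by `Nat.casesOn`), and `shift` is its composition with the open map `Prod.snd`
  (`isOpenMap_snd`).  Alternatively argue directly with `isOpen_pi_iff`.
* `shift_le`: the oracle composed with `Nat.succ` (`Nat.RecursiveIn.comp`,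
  `RecursiveIn.iff_nat`).
* `UnifE0.comp`, `unifE0_shift` (`b = a`), `iterate_shift_zero` (induction on `y`
  generalizing `X`, `Function.iterate_succ_apply`).
-/

namespace Vale.Agent.H88

theorem continuous_shift : Continuous shift := by
  apply continuous_pi
  intro n
  exact continuous_apply (n + 1)

/-- Prepending a bit to a set. -/
def e0shiftCons (p : Bool × (ℕ → Bool)) : ℕ → Bool := fun n => Nat.casesOn n p.1 p.2

theorem e0shift_continuous_cons : Continuous e0shiftCons := by
  apply continuous_pi
  intro n
  cases n with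
  | zero => exact continuous_fst
  | succ m => exact (continuous_apply m).comp continuous_snd

theorem e0shift_shift_cons (p : Bool × (ℕ → Bool)) : shift (e0shiftCons p) = p.2 := by
  funext n
  rfl

theorem e0shift_cons_shift (X : ℕ → Bool) : e0shiftCons (X 0, shift X) = X := by
  funext n
  cases n with
  | zero => rfl
  | succ m => rfl

theorem isOpenMap_shift : IsOpenMap shift := by
  intro U hU
  have hset : shift '' U = Prod.snd '' (e0shiftCons ⁻¹' U) := by
    ext Y
    constructor
    · rintro ⟨X, hX, rfl⟩
      refine ⟨(X 0, shift X), ?_, rfl⟩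
      change e0shiftCons (X 0, shift X) ∈ U
      rw [e0shift_cons_shift]
      exact hX
    · rintro ⟨p, hp, rfl⟩
      exact ⟨e0shiftCons p, hp, e0shift_shift_cons p⟩
  rw [hset]
  exact isOpenMap_snd _ (hU.preimage e0shift_continuous_cons)

theorem shift_le (X : ℕ → Bool) : TuringReducible (chi (shift X)) (chi X) := by
  apply RecursiveIn.iff_nat.mpr
  have h := Nat.RecursiveIn.comp (Nat.RecursiveIn.oracle (O := {chi X}) (chi X) rfl)
    (Nat.RecursiveIn.succ (O := {chi X}))
  refine Nat.RecursiveIn.of_eq h ?_
  intro n
  exact Part.bind_some (n + 1) (chi X)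

theorem UnifE0.comp {F G : (ℕ → Bool) → (ℕ → Bool)} (hF : UnifE0 F) (hG : UnifE0 G) :
    UnifE0 (fun X => F (G X)) := by
  intro a
  obtain ⟨b1, hb1⟩ := hG a
  obtain ⟨b, hb⟩ := hF b1
  refine ⟨b, ?_⟩
  intro X Y hXY n hn
  exact hb (G X) (G Y) (hb1 X Y hXY) n hn

theorem unifE0_shift : UnifE0 shift := by
  intro a
  refine ⟨a, ?_⟩
  intro X Y hXY n hn
  exact hXY (n + 1) (Nat.le_succ_of_le hn)

theorem iterate_shift_zero (y : ℕ) (X : ℕ → Bool) : shift^[y] X 0 = X y := by
  induction y generalizing X with
  | zero => rfl
  | succ y ih =>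
    rw [Function.iterate_succ_apply, ih]
    rfl

end Vale.Agent.H88
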