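import Vale.Agent.H88.E0.Good
import Vale.Agent.H88.E0.Iter
import Vale.Agent.H88.E0.Shift
import Vale.Agent.H88.E0.Search

/-!
# The key step: the inverse is generically degree-decreasing

Let `Φ` be a homeomorphism of Cantor space such that `Φ` and its inverse are uniformly
invariant, and such that `Φ` preserves Turing reducibility.  Then for generically many `B`,
the set `Φ.symm B` is computable from `B`.

The proof conjugates the shift: `Θ = Φ ∘ shift ∘ Φ.symm` is continuous, open, uniformly
invariant and degree-decreasing, so it has a good test; bit `y` of `Φ.symm B` is bit `0` of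
`Φ.symm (Θ^[y] B)`, and the iterates of `Θ` on a generic `B` are computed from `B` by iterating
the test.
-/

namespace Vale.Agent.H88

theorem generically_symm_le (Φ : (ℕ → Bool) ≃ₜ (ℕ → Bool)) (hE : UnifE0 Φ) (hE' : UnifE0 Φ.symm)
    (hT : ∀ A B : ℕ → Bool, TuringReducible (chi A) (chi B) →
      TuringReducible (chi (Φ A)) (chi (Φ B))) :
    Generically (fun B => TuringReducible (chi (Φ.symm B)) (chi B)) := by
  set Θ : (ℕ → Bool) → (ℕ → Bool) := fun B => Φ (shift (Φ.symm B)) with hΘ
  have hΘc : Continuous Θ := Φ.continuous.comp (continuous_shift.comp Φ.symm.continuous)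
  have hΘo : IsOpenMap Θ := Φ.isOpenMap.comp (isOpenMap_shift.comp Φ.symm.isOpenMap)
  have hΘE : UnifE0 Θ := hE.comp (unifE0_shift.comp hE')
  have hΘT : ∀ B, TuringReducible (chi (Θ B)) (chi B) := by
    intro B
    have h := hT (shift (Φ.symm B)) (Φ.symm B) (shift_le _)
    rwa [Homeomorph.apply_symm_apply] at h
  obtain ⟨t, ht⟩ := exists_goodTest Θ hΘc hΘE hΘT
  have hconj : ∀ y B, Φ.symm (Θ^[y] B) = shift^[y] (Φ.symm B) := by
    intro y
    induction y with
    | zero => intro B; rfl
    | succ y ih =>
      intro B
      rw [Function.iterate_succ_apply, ih, Function.iterate_succ_apply]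
      congr 1
      exact Φ.symm_apply_apply _
  have hbit : ∀ y B, Φ.symm B y = Φ.symm (Θ^[y] B) 0 := fun y B => by
    rw [hconj, iterate_shift_zero]
  obtain ⟨KS, hKS⟩ := exists_modulus (f := fun Z => Φ.symm Z 0)
    ((continuous_apply 0).comp Φ.symm.continuous)
  have hΘoi : ∀ y : ℕ, IsOpenMap Θ^[y] := by
    intro y
    induction y with
    | zero => exact IsOpenMap.id
    | succ y ih =>
      rw [Function.iterate_succ]
      exact ih.comp hΘo
  have hgen : Generically (fun B => ∀ y n, ∃ k K, (t n k (pre (Θ^[y] B) K)).isSome) :=
    Generically.forall_nat (fun y => ht.complete.comp (hΘc.iterate y) (hΘoi y))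
  refine hgen.mono (fun B hB => ?_)
  have hT1 : Computable (fun p : ℕ × ℕ × List Bool =>
      bif decide (KS ≤ (iterList t p.2.1 p.1 p.2.2).length) then
        some (Φ.symm (pad ((iterList t p.2.1 p.1 p.2.2).take KS)) 0) else none) := by
    have hit := computable_iterList ht.comp
    have hdec : Computable (fun p : ℕ × ℕ × List Bool =>
        decide (KS ≤ (iterList t p.2.1 p.1 p.2.2).length)) :=
      (Primrec.nat_le.decide.comp (Primrec.const KS) Primrec.list_length).to_comp.comp hit
    have htab := (primrec_table (fun _ ρ => Φ.symm (pad ρ) 0) 0 KS).to_comp.comp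
      ((Computable.const 0).pair hit)
    exact Computable.cond hdec (Computable.option_some.comp htab) (Computable.const none)
  refine turingReducible_of_test (t := fun y k ξ =>
      bif decide (KS ≤ (iterList t k y ξ).length) then
        some (Φ.symm (pad ((iterList t k y ξ).take KS)) 0) else none) hT1 ?_ ?_
  · intro y k K v hv
    by_cases hlen : KS ≤ (iterList t k y (pre B K)).length
    · simp only [hlen, decide_true, cond_true, Option.some.injEq] at hv
      rw [← hv, hbit y B]
      refine hKS _ _ (fun i hi => ?_)
      have hext := iterList_sound ht y k (pre B K) B (ext_pre B K)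
      rw [hext i (lt_of_lt_of_le hi hlen)]
      simp [pad, List.getD_eq_getElem?_getD, hi]
    · simp [hlen] at hv
  · intro y
    obtain ⟨k, K, hk⟩ := iterList_complete ht B hB y KS
    exact ⟨k, K, by simp [hk]⟩

end Vale.Agent.H88
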