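import Vale.Agent.H88.E0.Key
import Vale.Agent.H88.E0.GenJoin

/-!
# Bi-uniformly E0-invariant homeomorphisms induce only the trivial degree automorphism

Main theorem (`e0_main`): let `Φ` be a homeomorphism of Cantor space such that `Φ` and its
inverse are uniformly invariant for equality from some point on, and such that
`A ≤ᵀ B ↔ Φ A ≤ᵀ Φ B` for all sets `A`, `B`.  Then `Φ A ≡ᵀ A` for every set `A`.

Structure of the proof.
* `generically_symm_le` (file `Key`): for generically many `B`, `Φ.symm B ≤ᵀ B`; the same for
  the inverse homeomorphism gives `Φ G ≤ᵀ G` for generically many `G`.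
* `half`: for an arbitrary `X`, and generic `G`, both `G` and `G' = G xor X` are as above;
  since `X ≤ᵀ join G G'` and the degree map preserves joins, `Φ X ≤ᵀ join G X`.
* `reducible_of_generically_join`: hence `Φ X ≤ᵀ X`.
-/

namespace Vale.Agent.H88

/-- Translation by a fixed set is continuous. -/
theorem continuous_xor_right (X : ℕ → Bool) :
    Continuous (fun G : ℕ → Bool => fun n => xor (G n) (X n)) :=
  continuous_pi fun n =>
    (continuous_of_discreteTopology (f := fun b : Bool => xor b (X n))).comp (continuous_apply n)

/-- Translation by a fixed set is an open map. -/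
theorem isOpenMap_xor_right (X : ℕ → Bool) :
    IsOpenMap (fun G : ℕ → Bool => fun n => xor (G n) (X n)) := by
  have hinv : Function.Involutive (fun G : ℕ → Bool => fun n => xor (G n) (X n)) := by
    intro G
    funext n
    simp
  exact (Homeomorph.mk (Function.Involutive.toPerm _ hinv) (continuous_xor_right X)
    (continuous_xor_right X)).isOpenMap

/-- If `Ψ` induces an automorphism of the Turing degrees and is generically degree-decreasing,
then it is degree-decreasing everywhere. -/
theorem decreasing_of_generically (Ψ : (ℕ → Bool) ≃ₜ (ℕ → Bool))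
    (hΨ : ∀ A B : ℕ → Bool, TuringReducible (chi A) (chi B) ↔
      TuringReducible (chi (Ψ A)) (chi (Ψ B)))
    (hgen : Generically (fun G => TuringReducible (chi (Ψ G)) (chi G))) (X : ℕ → Bool) :
    TuringReducible (chi (Ψ X)) (chi X) := by
  apply reducible_of_generically_join
  refine (hgen.and (hgen.comp (continuous_xor_right X) (isOpenMap_xor_right X))).mono ?_
  rintro G ⟨h1, h2⟩
  have hX : TuringReducible (chi X) (chi (join G (fun n => xor (G n) (X n)))) := by
    have h := xor_le_join G (fun n => xor (G n) (X n))
    have e : (fun n => xor (G n) (xor (G n) (X n))) = X := by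
      funext n
      simp
    rwa [e] at h
  have h3 : TuringReducible (chi (Ψ X)) (chi (Ψ (join G (fun n => xor (G n) (X n))))) :=
    (hΨ _ _).mp hX
  have hΨW : Ψ (Ψ.symm (join (Ψ G) (Ψ (fun n => xor (G n) (X n))))) =
      join (Ψ G) (Ψ (fun n => xor (G n) (X n))) := Ψ.apply_symm_apply _
  have hGW : TuringReducible (chi G)
      (chi (Ψ.symm (join (Ψ G) (Ψ (fun n => xor (G n) (X n)))))) :=
    (hΨ _ _).mpr (by rw [hΨW]; exact left_le_join _ _)
  have hG'W : TuringReducible (chi (fun n => xor (G n) (X n)))
      (chi (Ψ.symm (join (Ψ G) (Ψ (fun n => xor (G n) (X n)))))) :=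
    (hΨ _ _).mpr (by rw [hΨW]; exact right_le_join _ _)
  have h4 : TuringReducible (chi (Ψ (join G (fun n => xor (G n) (X n)))))
      (chi (join (Ψ G) (Ψ (fun n => xor (G n) (X n))))) := by
    have h := (hΨ _ _).mp (join_le hGW hG'W)
    rwa [hΨW] at h
  have h5 : TuringReducible (chi (join (Ψ G) (Ψ (fun n => xor (G n) (X n)))))
      (chi (join G X)) :=
    join_le (h1.trans (left_le_join G X)) (h2.trans (xor_le_join G X))
  exact (h3.trans h4).trans h5

/-- Main theorem: a bi-uniformly E0-invariant homeomorphism of Cantor space that preserves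
Turing reducibility in both directions maps every set to a Turing equivalent set. -/
theorem e0_main (Φ : (ℕ → Bool) ≃ₜ (ℕ → Bool)) (hE : UnifE0 Φ) (hE' : UnifE0 Φ.symm)
    (hT : ∀ A B : ℕ → Bool, TuringReducible (chi A) (chi B) ↔
      TuringReducible (chi (Φ A)) (chi (Φ B))) :
    ∀ A, TuringEquivalent (chi (Φ A)) (chi A) := by
  have hT' : ∀ A B : ℕ → Bool, TuringReducible (chi A) (chi B) ↔
      TuringReducible (chi (Φ.symm A)) (chi (Φ.symm B)) := by
    intro A B
    have h := hT (Φ.symm A) (Φ.symm B)
    rw [Homeomorph.apply_symm_apply, Homeomorph.apply_symm_apply] at h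
    exact h.symm
  have k1 : Generically (fun B => TuringReducible (chi (Φ.symm B)) (chi B)) :=
    generically_symm_le Φ hE hE' (fun A B h => (hT A B).mp h)
  have k2 : Generically (fun B => TuringReducible (chi (Φ B)) (chi B)) :=
    generically_symm_le Φ.symm hE' hE (fun A B h => (hT' A B).mp h)
  have d1 := decreasing_of_generically Φ hT k2
  have d2 := decreasing_of_generically Φ.symm hT' k1
  intro A
  refine ⟨d1 A, ?_⟩
  have h := d2 (Φ A)
  rwa [Homeomorph.symm_apply_apply] at h

end Vale.Agent.H88
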