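import Vale.Agent.H88.E0.Defs

/-!
# Moduli of continuity and finite tables

Sketches.
* `exists_modulus`: every point `A` has a cylinder neighbourhood on which `f` is constant
  (`isOpen_pi_iff` applied to the open set `f ⁻¹' {f A}`, as in `exists_matrix` of
  `Vale/Agent/H88/LinHomeo.lean`); by compactness (`CompactSpace.elim_nhds_subcover`)
  finitely many of these cover the space; take the largest length.
* `primrec_table`: the set of pairs `(m, σ)` with `m ≤ n₀` and `σ.length ≤ K₀` is finite
  (`List.finite_length_le`), so their codes are bounded by some `N`; with the constant list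
  `L = (List.range N).map (fun x => value at the pair decoded from x)` the function is
  `fun p => L.getD (Encodable.encode (min p.1 n₀, p.2.take K₀)) false`, which is primitive
  recursive (`Primrec.list_getD`, `Primrec.encode`, `Primrec.list_take`, `Primrec.nat_min`).
-/

namespace Vale.Agent.H88

/-- A continuous two-valued function on Cantor space depends on finitely many coordinates. -/
theorem exists_modulus {f : (ℕ → Bool) → Bool} (hf : Continuous f) :
    ∃ K, ∀ A B : ℕ → Bool, (∀ i, i < K → A i = B i) → f A = f B := by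
  classical
  have hloc : ∀ A : ℕ → Bool, ∃ (I : Finset ℕ) (u : ℕ → Set Bool),
      A ∈ (I : Set ℕ).pi u ∧ IsOpen ((I : Set ℕ).pi u) ∧
        ∀ B ∈ (I : Set ℕ).pi u, f B = f A := by
    intro A
    have hopen : IsOpen (f ⁻¹' {f A}) := (isOpen_discrete _).preimage hf
    obtain ⟨I, u, hu, hsub⟩ := isOpen_pi_iff.1 hopen A rfl
    refine ⟨I, u, ?_, ?_, ?_⟩
    · intro i hi
      exact (hu i hi).2
    · exact isOpen_set_pi I.finite_toSet (fun i hi => (hu i hi).1)
    · intro B hB
      exact hsub hB
  choose I u hA hopen hconst using hloc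
  obtain ⟨t, ht⟩ := CompactSpace.elim_nhds_subcover (fun A => (I A : Set ℕ).pi (u A))
    (fun A => (hopen A).mem_nhds (hA A))
  refine ⟨t.sup (fun A => (I A).sup id + 1), ?_⟩
  intro A B hAB
  have hAmem : A ∈ ⋃ x ∈ t, (I x : Set ℕ).pi (u x) := by
    rw [ht]
    trivial
  obtain ⟨A₀, hA₀, hAA₀⟩ := Set.mem_iUnion₂.1 hAmem
  have hB : B ∈ (I A₀ : Set ℕ).pi (u A₀) := by
    intro i hi
    have hi' : i < t.sup (fun A => (I A).sup id + 1) := by
      have h1 : i ≤ (I A₀).sup id := Finset.le_sup (f := id) hi
      have h2 : (I A₀).sup id + 1 ≤ t.sup (fun A => (I A).sup id + 1) :=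
        Finset.le_sup (f := fun A => (I A).sup id + 1) hA₀
      omega
    rw [← hAB i hi']
    exact hAA₀ i hi
  rw [hconst A₀ A hAA₀, hconst A₀ B hB]

/-- A function given by a finite table is primitive recursive. -/
theorem primrec_table (g : ℕ → List Bool → Bool) (n₀ K₀ : ℕ) :
    Primrec (fun p : ℕ × List Bool => g (min p.1 n₀) (p.2.take K₀)) := by
  classical
  have hfin : {q : ℕ × List Bool | q.1 ≤ n₀ ∧ q.2.length ≤ K₀}.Finite := by
    have h1 : (Set.Iic n₀ ×ˢ {l : List Bool | l.length ≤ K₀}).Finite :=
      (Set.finite_Iic n₀).prod (List.finite_length_le Bool K₀)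
    refine h1.subset ?_
    intro q hq
    exact ⟨hq.1, hq.2⟩
  obtain ⟨M, hM⟩ := (hfin.image (Encodable.encode)).bddAbove
  let h : ℕ → Bool := fun x =>
    (Encodable.decode (α := ℕ × List Bool) x).elim false (fun q => g q.1 q.2)
  let L : List Bool := (List.range (M + 1)).map h
  have hprim : Primrec (fun p : ℕ × List Bool =>
      L.getD (Encodable.encode (min p.1 n₀, p.2.take K₀)) false) :=
    (Primrec.list_getD false).comp (Primrec.const L)
      (Primrec.encode.comp (Primrec.pair (Primrec.nat_min.comp Primrec.fst (Primrec.const n₀))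
        (Primrec.list_take.comp (Primrec.const K₀) Primrec.snd)))
  refine hprim.of_eq ?_
  intro p
  have hmem : (min p.1 n₀, p.2.take K₀) ∈
      {q : ℕ × List Bool | q.1 ≤ n₀ ∧ q.2.length ≤ K₀} :=
    ⟨min_le_right _ _, List.length_take_le _ _⟩
  have hlt : Encodable.encode (min p.1 n₀, p.2.take K₀) < M + 1 :=
    Nat.lt_succ_of_le (hM (Set.mem_image_of_mem _ hmem))
  have hlen : Encodable.encode (min p.1 n₀, p.2.take K₀) < L.length := by
    simpa [L] using hlt
  rw [List.getD_eq_getElem _ _ hlen]
  simp [L, h, Encodable.encodek]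

end Vale.Agent.H88
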