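import Vale.Agent.H88.E0.Modulus
import Vale.Agent.H88.E0.Generic
import Vale.Agent.H88.LinSearch

/-!
# The raw test obtained from the Baire category package

`rawTest Θ c τ n₀ K₀ n k ρ` is, for `n < n₀`, the table value `Θ (pad (ρ.take K₀)) n`
(if `K₀ ≤ ρ.length`), and for `n₀ ≤ n` the result of running the oracle code `c` for `k`
steps on the finite oracle `τ ++ ρ.drop τ.length` (the string `ρ` overwritten by `τ`).

Sketches.
* `rawTest_primrec`: the table part is `primrec_table (fun n ρ => Θ (pad ρ) n) n₀ K₀`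
  (for `n < n₀`, `min n n₀ = n`); the other part is `primrec_cert` (`LinSearch.lean`) with
  `Primrec.list_append`, `Primrec.list_drop`, then `Primrec.option_map`; combine with
  `Primrec.ite` / `Primrec.cond`.
* `rawTest_sound`: for `n < n₀` use `hK0` (`pad (ρ.take K₀)` and `B` agree below `K₀`).
  For `n₀ ≤ n` apply `hs` with `σ = ρ.drop τ.length` to the set
  `A i = if i < τ.length then τ.getD i false else B i`, which extends `τ ++ ρ.drop τ.length`
  and agrees with `B` from `τ.length` on, so `Θ A n = Θ B n` by `hE0`.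
* `rawTest_mono`: `Code.evaln_mono`.
* `rawTest_complete`: family `U n = {B | ∃ k K, (rawTest .. n k (pre B K)).isSome}`; open since
  membership depends on an initial segment; dense by `dense_of_forall_ext`: for `n < n₀` every
  `B` is in `U n` (`K = K₀`); for `n₀ ≤ n` and a string `σ`, let
  `σ' = σ ++ List.replicate τ.length false`, apply `hd (σ'.drop τ.length) n` to get `ρ k v`,
  and take `B = pad (σ' ++ ρ)`, `K = (σ' ++ ρ).length`.
-/

namespace Vale.Agent.H88

open Nat.Partrec (Code)

theorem rawTest_primrec (Θ : (ℕ → Bool) → (ℕ → Bool)) (c : OCode) (τ : List Bool)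
    (n₀ K₀ : ℕ) :
    Primrec (fun p : ℕ × ℕ × List Bool => rawTest Θ c τ n₀ K₀ p.1 p.2.1 p.2.2) := by
  have hT : Primrec (fun q : ℕ × List Bool => Θ (pad (q.2.take K₀)) (min q.1 n₀)) :=
    primrec_table (fun n ρ => Θ (pad ρ) n) n₀ K₀
  have hρ : Primrec (fun p : ℕ × ℕ × List Bool => p.2.2) := Primrec.snd.comp Primrec.snd
  have h1 : PrimrecPred (fun p : ℕ × ℕ × List Bool => p.1 < n₀) :=
    Primrec.nat_lt.comp Primrec.fst (Primrec.const n₀)
  have h2 : PrimrecPred (fun p : ℕ × ℕ × List Bool => K₀ ≤ p.2.2.length) :=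
    Primrec.nat_le.comp (Primrec.const K₀) (Primrec.list_length.comp hρ)
  have h3 : Primrec (fun p : ℕ × ℕ × List Bool =>
      (some (Θ (pad (p.2.2.take K₀)) (min p.1 n₀)) : Option Bool)) :=
    Primrec.option_some.comp (hT.comp (Primrec.fst.pair hρ))
  have h4 : Primrec (fun p : ℕ × ℕ × List Bool =>
      if K₀ ≤ p.2.2.length then (some (Θ (pad (p.2.2.take K₀)) (min p.1 n₀)) : Option Bool)
      else none) :=
    Primrec.ite h2 h3 (Primrec.const none)
  have hs : Primrec (fun p : ℕ × ℕ × List Bool => τ ++ p.2.2.drop τ.length) :=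
    Primrec.list_append.comp (Primrec.const τ)
      (Primrec.list_drop.comp (Primrec.const τ.length) hρ)
  have h5 : Primrec (fun p : ℕ × ℕ × List Bool =>
      Code.evaln p.2.1 (prog c (τ ++ p.2.2.drop τ.length)) p.1) :=
    primrec_cert c (Primrec.fst.comp Primrec.snd) hs Primrec.fst
  have hdec : Primrec₂ (fun (_ : ℕ × ℕ × List Bool) (v : ℕ) => decide (v = 1)) :=
    (Primrec.eq.decide.comp Primrec.snd (Primrec.const 1)).to₂
  have h6 : Primrec (fun p : ℕ × ℕ × List Bool =>
      (Code.evaln p.2.1 (prog c (τ ++ p.2.2.drop τ.length)) p.1).map (fun v => decide (v = 1))) :=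
    Primrec.option_map h5 hdec
  refine (Primrec.ite h1 h4 h6).of_eq ?_
  intro p
  unfold rawTest
  by_cases hn : p.1 < n₀
  · rw [if_pos hn, if_pos hn, Nat.min_eq_left hn.le]
  · rw [if_neg hn, if_neg hn]

theorem rawTest_sound (Θ : (ℕ → Bool) → (ℕ → Bool)) (c : OCode) (τ : List Bool) (n₀ K₀ : ℕ)
    (hs : ∀ (σ : List Bool) (k n v : ℕ), Code.evaln k (prog c (τ ++ σ)) n = some v →
      ∀ A, Ext (τ ++ σ) A → v = (Θ A n).toNat)
    (hE0 : ∀ X Y : ℕ → Bool, (∀ m, τ.length ≤ m → X m = Y m) → ∀ n, n₀ ≤ n → Θ X n = Θ Y n)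
    (hK0 : ∀ n, n < n₀ → ∀ X Y : ℕ → Bool, (∀ m, m < K₀ → X m = Y m) → Θ X n = Θ Y n) :
    ∀ n k ρ v, rawTest Θ c τ n₀ K₀ n k ρ = some v → ∀ B, Ext ρ B → Θ B n = v := by
  intro n k ρ v h B hB
  unfold rawTest at h
  by_cases hn : n < n₀
  · rw [if_pos hn] at h
    by_cases hK : K₀ ≤ ρ.length
    · rw [if_pos hK] at h
      have hv : Θ (pad (ρ.take K₀)) n = v := Option.some.inj h
      rw [← hv]
      refine hK0 n hn B (pad (ρ.take K₀)) ?_
      intro i hi
      rw [hB i (lt_of_lt_of_le hi hK)]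
      simp [pad, List.getD_eq_getElem?_getD, hi]
    · rw [if_neg hK] at h
      exact absurd h (by simp)
  · rw [if_neg hn] at h
    obtain ⟨w, hw, hwv⟩ := Option.map_eq_some_iff.mp h
    set A : ℕ → Bool := fun i => if i < τ.length then τ.getD i false else B i with hA
    have hExt : Ext (τ ++ ρ.drop τ.length) A := by
      intro i hi
      by_cases hit : i < τ.length
      · rw [List.getD_append _ _ _ _ hit]
        simp [hA, hit]
      · have hle : τ.length ≤ i := Nat.le_of_not_lt hit
        rw [List.length_append, List.length_drop] at hi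
        have hiρ : i < ρ.length := by omega
        rw [List.getD_append_right _ _ _ _ hle]
        have e1 : A i = B i := by simp [hA, hit]
        rw [e1, hB i hiρ]
        simp only [List.getD_eq_getElem?_getD, List.getElem?_drop]
        congr 2
        omega
    have h1 : w = (Θ A n).toNat := hs (ρ.drop τ.length) k n w hw A hExt
    have h2 : Θ A n = Θ B n := by
      refine hE0 A B ?_ n (Nat.le_of_not_lt hn)
      intro i hi
      simp [hA, Nat.not_lt.mpr hi]
    rw [h2] at h1
    rw [← hwv, h1]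
    cases Θ B n <;> simp

theorem rawTest_mono (Θ : (ℕ → Bool) → (ℕ → Bool)) (c : OCode) (τ : List Bool) (n₀ K₀ : ℕ) :
    ∀ n k k' ρ, k ≤ k' → (rawTest Θ c τ n₀ K₀ n k ρ).isSome →
      (rawTest Θ c τ n₀ K₀ n k' ρ).isSome := by
  intro n k k' ρ hkk h
  unfold rawTest at h ⊢
  by_cases hn : n < n₀
  · rw [if_pos hn] at h ⊢
    exact h
  · rw [if_neg hn] at h ⊢
    rw [Option.isSome_map] at h ⊢
    obtain ⟨v, hv⟩ := Option.isSome_iff_exists.mp h
    have hv' : v ∈ Code.evaln k' (prog c (τ ++ ρ.drop τ.length)) n :=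
      Code.evaln_mono hkk (Option.mem_def.mpr hv)
    exact Option.isSome_iff_exists.mpr ⟨v, Option.mem_def.mp hv'⟩

theorem rawTest_complete (Θ : (ℕ → Bool) → (ℕ → Bool)) (c : OCode) (τ : List Bool) (n₀ K₀ : ℕ)
    (hd : ∀ (σ : List Bool) (n : ℕ), ∃ (ρ : List Bool) (k v : ℕ),
      Code.evaln k (prog c (τ ++ σ ++ ρ)) n = some v) :
    Generically (fun B => ∀ n, ∃ k K, (rawTest Θ c τ n₀ K₀ n k (pre B K)).isSome) := by
  refine ⟨fun n => {B | ∃ k K, (rawTest Θ c τ n₀ K₀ n k (pre B K)).isSome}, ?_, ?_, ?_⟩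
  · intro n
    rw [isOpen_iff_forall_mem_open]
    rintro B ⟨k, K, hkK⟩
    refine ⟨{B' : ℕ → Bool | ∀ i < K, B' i = B i}, ?_, isOpen_agree B K, fun i _ => rfl⟩
    intro B' hB'
    have e : pre B' K = pre B K := by
      unfold pre
      exact List.map_congr_left (fun i hi => hB' i (List.mem_range.mp hi))
    exact ⟨k, K, by rw [e]; exact hkK⟩
  · intro n
    apply dense_of_forall_ext
    intro σ
    by_cases hn : n < n₀
    · refine ⟨pad σ, ext_pad σ, 0, K₀, ?_⟩
      unfold rawTest
      rw [if_pos hn, if_pos (by rw [length_pre])]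
      rfl
    · obtain ⟨ρ, k, v, hv⟩ := hd ((σ ++ List.replicate τ.length false).drop τ.length) n
      set σ' : List Bool := σ ++ List.replicate τ.length false with hσ'
      have hlen : τ.length ≤ σ'.length := by
        rw [hσ', List.length_append, List.length_replicate]
        omega
      have hpre : pre (pad (σ' ++ ρ)) (σ' ++ ρ).length = σ' ++ ρ := by
        apply List.ext_getElem
        · rw [length_pre]
        · intro i h1 h2
          have h3 : (σ' ++ ρ)[i]? = some (σ' ++ ρ)[i] := List.getElem?_eq_getElem h2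
          simp [pre, pad, List.getD_eq_getElem?_getD, h3]
      refine ⟨pad (σ' ++ ρ), ?_, k, (σ' ++ ρ).length, ?_⟩
      · have h0 : Ext (σ' ++ ρ) (pad (σ' ++ ρ)) := ext_pad _
        have h1 : Ext σ' (pad (σ' ++ ρ)) := h0.of_append
        rw [hσ'] at h1
        exact h1.of_append
      · unfold rawTest
        rw [if_neg hn, hpre, List.drop_append_of_le_length hlen, ← List.append_assoc, hv]
        rfl
  · intro G hG n
    exact hG n

end Vale.Agent.H88
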